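import Vale.Agent.P078.Stmt
import Vale.Agent.P078.Fin

theorem Vale.Agent.Results.P078.Paving.result {H : Type*} [NormedAddCommGroup H]
    [InnerProductSpace ℂ H] [CompleteSpace H] (M : VonNeumannAlgebra H)
    (A : StarSubalgebra ℂ (H →L[ℂ] H)) (hA : Vale.Agent.P078.IsMASA M A) (ε : ℝ) (h0 : 0 < ε)
    (h1 : ε < 1) :
    ∃ r : ℕ, 1 ≤ r ∧ (r : ℝ) ≤ 10 ^ 8 / ε ^ 2 ∧
      ∀ x ∈ M, IsSelfAdjoint x → Vale.Agent.P078.SoPavable M A x ε r :=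
  Vale.Agent.P078.so_paving M A hA h0 h1
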